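import Vale.Agent.P070.Saw
import Vale.Agent.P070.Gen
import Vale.Agent.P070.Spec

namespace Vale.Agent.Results.P070.Characters

open Vale.Agent.P070

universe u

/-- Let `A` be a C*-algebra (unital or not) with property (N). For every C*-algebra `B` embedded
in `A`: every irreducible representation of `A` contains an orthonormal family of joint
eigenvectors of `B`, one for each character of `B`; and the number of characters of `B` is at
most the cardinality of any dense subset of `A`. If `A` separates a sequence (for example, if `A`
contains a copy of the bounded sequences, or is a SAW*-algebra with an infinite orthogonal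
sequence), then every dense subset of `A` has at least `2 ^ (2 ^ ℵ₀)` elements; and at least
`2 ^ (2 ^ κ)` elements if `A` separates a family of infinite cardinality `κ`. If `A` is SAW* and
has a dense subset with fewer than `2 ^ (2 ^ ℵ₀)` elements, then every self-adjoint element of `A`
has finite spectrum. -/
theorem result (A : Type u) [NonUnitalCStarAlgebra A] (hN : Naimark A) :
    (∀ (B : Type u) [NonUnitalCStarAlgebra B] (j : B →⋆ₙₐ[ℂ] A), Function.Injective j →
      AllHaveEigenvectors j ∧
      ∀ D : Set A, Dense D →
        Cardinal.mk (WeakDual.characterSpace ℂ B) ≤ Cardinal.mk D) ∧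
    (SeparatesASequence A → ∀ D : Set A, Dense D →
      2 ^ Cardinal.continuum ≤ Cardinal.mk D) ∧
    (ContainsBoundedSequences A → SeparatesASequence A) ∧
    (IsSAWStar A → HasOrthogonalSequence A → SeparatesASequence A) ∧
    (∀ (ι : Type u) [Infinite ι], SeparatesAFamily ι A → ∀ D : Set A, Dense D →
      2 ^ (2 ^ Cardinal.mk ι : Cardinal.{u}) ≤ Cardinal.mk D) ∧
    (IsSAWStar A → ∀ D : Set A, Dense D → Cardinal.mk D < 2 ^ Cardinal.continuum →
      ∀ a : A, IsSelfAdjoint a → (quasispectrum ℝ a).Finite) := by
  have hN' := propN_of hN
  refine ⟨fun B _ j hj => ⟨fun H _ _ _ π hπ =>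
      exists_orthonormal hN' j hj π ((irred_of π).1 hπ),
    fun D hD => ?_⟩, fun hs D hD => card_of_separated hN' hs D hD,
    fun ⟨j, hj⟩ => separates_of_contains j hj, fun h1 h2 => separates_of_saw h1 h2,
    fun ι _ hs D hD => Gen.card_of_family hN' ι hs D hD, fun hS D hD hlt a ha => ?_⟩
  · obtain ⟨f, hf⟩ := exists_injection hN' j hj D hD
    exact Cardinal.mk_le_of_injective hf
  · by_contra hinf
    exact absurd (card_of_separated hN' (separates_of_saw hS (orth_of_infinite a ha hinf)) D hD)
      (not_le.2 hlt)

end Vale.Agent.Results.P070.Characters
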